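import Vale.Agent.P072.K.Chain

/-! # P072-K7: size of the maximum -/

namespace Vale.Agent.P072

open Finset

theorem rad_nonneg (T : ℝ) (hT : 0 ≤ T) (N : ℕ → ℕ) (ξ : ℕ → ℚ) (k : ℕ) : 0 ≤ rad T N ξ k := by
  unfold rad
  positivity

theorem rad_le_T (T : ℝ) (hT : 0 ≤ T) (N : ℕ → ℕ) (hN : ∀ k, 1 ≤ N k) (ξ : ℕ → ℚ) (k : ℕ) :
    rad T N ξ k ≤ T := by
  unfold rad
  apply div_le_self hT
  have h1 : (1 : ℝ) ≤ qq ξ (k + 1) := by exact_mod_cast qq_pos ξ (k + 1)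
  have h2 : (1 : ℝ) ≤ N k := by exact_mod_cast hN k
  nlinarith

theorem val_le (d A : ℕ) (N : ℕ → ℕ) (T τ : ℝ) (h : Par d A N T τ) (X : ℕ → ℝ)
    (hX : ∀ k < d, 0 < X k) (ξ : ℕ → ℚ) (hξ : Valid d N ξ) :
    val d T N X ξ ≤ ∑ k ∈ range d, X k * (Real.log (X k) + T - 1) := by
  have hT : 0 ≤ T := by linarith [h.T_pos]
  unfold val
  refine sum_le_sum ?_
  intro k hk
  have hXk := hX k (mem_range.1 hk)
  have hR := rad_le_T T hT N h.Npos ξ k
  set s : ℝ := T * ξ k with hs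
  set R := rad T N ξ k with hRdef
  have h1 : Real.exp (s - R) = X k * Real.exp (s - R - Real.log (X k)) := by
    rw [Real.exp_sub _ (Real.log (X k)), Real.exp_log hXk]
    field_simp
  have h2 : s - R - Real.log (X k) + 1 ≤ Real.exp (s - R - Real.log (X k)) :=
    Real.add_one_le_exp _
  rw [h1]
  nlinarith [mul_le_mul_of_nonneg_left h2 hXk.le, mul_le_mul_of_nonneg_left hR hXk.le]

theorem qq_intSeq (f : ℕ → ℤ) (k : ℕ) : qq (fun j => (f j : ℚ)) k = 1 := by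
  induction k with
  | zero => rfl
  | succ k ih =>
    rw [qq_succ, ih]
    simp

theorem le_val (d A : ℕ) (N : ℕ → ℕ) (T τ : ℝ) (h : Par d A N T τ) (X : ℕ → ℝ)
    (hX : ∀ k < d, 0 < X k) (hmono : ∀ i j, i ≤ j → j < d → X j ≤ X i) :
    ∃ ξ, Valid d N ξ ∧ ∑ k ∈ range d, X k * (Real.log (X k) - T - 1) ≤ val d T N X ξ := by
  have hT2 : 2 ≤ T := h.T_pos
  have hT : 0 < T := by linarith
  refine ⟨fun k => ((⌊Real.log (X k) / T⌋ : ℤ) : ℚ), ⟨?_, ?_⟩, ?_⟩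
  · intro k _
    rw [qq_intSeq]
    simpa using h.Npos k
  · intro i j hij hj
    have h1 : Real.log (X j) / T ≤ Real.log (X i) / T :=
      div_le_div_of_nonneg_right (Real.log_le_log (hX j hj) (hmono i j hij hj)) hT.le
    show ((⌊Real.log (X j) / T⌋ : ℤ) : ℚ) ≤ ((⌊Real.log (X i) / T⌋ : ℤ) : ℚ)
    exact_mod_cast Int.floor_le_floor h1
  · unfold val
    refine sum_le_sum ?_
    intro k hk
    have hXk := hX k (mem_range.1 hk)
    have hr := rad_nonneg T hT.le N (fun k => ((⌊Real.log (X k) / T⌋ : ℤ) : ℚ)) k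
    have h1 : ((⌊Real.log (X k) / T⌋ : ℤ) : ℝ) ≤ Real.log (X k) / T := Int.floor_le _
    have h2 : Real.log (X k) / T < ((⌊Real.log (X k) / T⌋ : ℤ) : ℝ) + 1 := Int.lt_floor_add_one _
    rw [le_div_iff₀ hT] at h1
    rw [div_lt_iff₀ hT] at h2
    have e : (((fun k => ((⌊Real.log (X k) / T⌋ : ℤ) : ℚ)) k : ℚ) : ℝ) =
        ((⌊Real.log (X k) / T⌋ : ℤ) : ℝ) := by
      push_cast
      rfl
    rw [e]
    have h3 : Real.exp (T * ((⌊Real.log (X k) / T⌋ : ℤ) : ℝ) -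
        rad T N (fun k => ((⌊Real.log (X k) / T⌋ : ℤ) : ℚ)) k) ≤ X k := by
      calc _ ≤ Real.exp (Real.log (X k)) := Real.exp_le_exp.2 (by nlinarith)
        _ = X k := Real.exp_log hXk
    nlinarith [mul_le_mul_of_nonneg_left (show Real.log (X k) - T ≤
      T * ((⌊Real.log (X k) / T⌋ : ℤ) : ℝ) by nlinarith) hXk.le]

end Vale.Agent.P072
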