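import Vale.Agent.P072.K.Chain

/-! # P072-K5: error bounds give sign compatibility -/

namespace Vale.Agent.P072

open Finset

theorem k5_chain (d : ℕ) (N : ℕ → ℕ) (ξ : ℕ → ℚ) (h : Valid d N ξ) (i k : ℕ) (hik : i ≤ k)
    (hk : k < d) : qq ξ (k + 1) ≤ qq ξ (i + 1) * ∏ j ∈ Ioc i k, N j := by
  induction k, hik using Nat.le_induction with
  | base => simp
  | succ k hik ih =>
    have h1 := ih (by omega)
    have h2 : Ioc i (k + 1) = insert (k + 1) (Ioc i k) := by
      ext x
      simp only [mem_Ioc, mem_insert]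
      omega
    rw [h2, prod_insert (by simp), qq_succ]
    have h3 := h.1 (k + 1) hk
    calc qq ξ (k + 1) * ((qq ξ (k + 1) : ℚ) * ξ (k + 1)).den
        ≤ (qq ξ (i + 1) * ∏ j ∈ Ioc i k, N j) * N (k + 1) := Nat.mul_le_mul h1 h3
      _ = qq ξ (i + 1) * (N (k + 1) * ∏ j ∈ Ioc i k, N j) := by ring

theorem k5_rad (d A : ℕ) (N : ℕ → ℕ) (T τ : ℝ) (h : Par d A N T τ)
    (ξ : ℕ → ℚ) (hξ : Valid d N ξ) (i k : ℕ) (hik : i ≤ k) (hk : k < d) :
    rad T N ξ i ≤ T / (4 * A * (qq ξ (k + 1) : ℝ)) := by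
  have hT := h.T_pos
  have hA : (1 : ℝ) ≤ (A : ℝ) := by exact_mod_cast h.A1
  have hQ : (0 : ℝ) < (qq ξ (k + 1) : ℝ) := by exact_mod_cast qq_pos ξ (k + 1)
  have h1 := k5_chain d N ξ hξ i k hik hk
  have h2 : ∏ j ∈ Ioc i k, N j ≤ ∏ j ∈ Ioo i d, N j := by
    apply Finset.prod_le_prod_of_subset_of_one_le'
    · intro x hx
      simp only [mem_Ioc, mem_Ioo] at hx ⊢
      omega
    · intro x _ _
      exact h.Npos x
  have h3 : 4 * A * qq ξ (k + 1) ≤ qq ξ (i + 1) * N i := by
    calc 4 * A * qq ξ (k + 1) ≤ 4 * A * (qq ξ (i + 1) * ∏ j ∈ Ioo i d, N j) := by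
          apply Nat.mul_le_mul_left
          exact h1.trans (Nat.mul_le_mul_left _ h2)
      _ = qq ξ (i + 1) * (4 * A * ∏ j ∈ Ioo i d, N j) := by ring
      _ ≤ qq ξ (i + 1) * N i := Nat.mul_le_mul_left _ (h.N4 i (by omega))
  have h4 : (4 * A * (qq ξ (k + 1)) : ℝ) ≤ (qq ξ (i + 1) : ℝ) * (N i : ℝ) := by
    exact_mod_cast h3
  unfold rad
  apply div_le_div_of_nonneg_left (by linarith) (by positivity) h4

theorem k5_qP (d A : ℕ) (N : ℕ → ℕ) (T τ : ℝ) (h : Par d A N T τ)
    (ξ : ℕ → ℚ) (hξ : Valid d N ξ) (k : ℕ) (hk : k < d) :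
    (qq ξ (k + 1) : ℝ) ≤ ((∏ k ∈ range d, N k : ℕ) : ℝ) := by
  have h1 := qq_le d N ξ hξ (k + 1) (by omega)
  have h2 : ∏ i ∈ range (k + 1), N i ≤ ∏ i ∈ range d, N i := by
    apply Finset.prod_le_prod_of_subset_of_one_le'
    · intro x hx
      simp only [mem_range] at hx ⊢
      omega
    · intro x _ _
      exact h.Npos x
  exact_mod_cast h1.trans h2

theorem sign_compat (d A : ℕ) (N : ℕ → ℕ) (T τ : ℝ) (h : Par d A N T τ) (X : ℕ → ℝ)
    (ξ : ℕ → ℚ) (hξ : Valid d N ξ)
    (hup : ∀ k < d, T * ξ k - Real.log (X k) ≤ rad T N ξ k + Real.log (2 * T * d))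
    (hlo : ∀ k < d, Real.log (X k) - T * ξ k ≤ rad T N ξ k)
    (a : ℕ → ℤ) (ha : ∑ k ∈ range d, |a k| ≤ (A : ℤ)) :
    (∑ k ∈ range d, (a k : ℝ) * (T * ξ k) = 0 ∨
      T / ((∏ k ∈ range d, N k : ℕ) : ℝ) ≤ |∑ k ∈ range d, (a k : ℝ) * (T * ξ k)|) ∧
    (0 < ∑ k ∈ range d, (a k : ℝ) * (T * ξ k) →
      τ ≤ ∑ k ∈ range d, (a k : ℝ) * Real.log (X k)) := by
  classical
  have hT := h.T_pos
  have hA : (1 : ℝ) ≤ (A : ℝ) := by exact_mod_cast h.A1
  by_cases hne : ((range d).filter (fun k => a k ≠ 0)).Nonempty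
  swap
  · have h0 : ∀ k ∈ range d, a k = 0 := by
      intro k hk
      by_contra hk0
      exact hne ⟨k, by simp only [mem_filter]; exact ⟨hk, hk0⟩⟩
    have hS : ∑ k ∈ range d, (a k : ℝ) * (T * ξ k) = 0 := by
      apply sum_eq_zero
      intro k hk
      rw [h0 k hk]
      simp
    rw [hS]
    exact ⟨Or.inl rfl, fun hh => absurd hh (lt_irrefl _)⟩
  · set k := ((range d).filter (fun k => a k ≠ 0)).max' hne with hkdef
    have hkmem := Finset.max'_mem _ hne
    rw [← hkdef] at hkmem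
    have hkd : k < d := by
      have := (mem_filter.mp hkmem).1
      exact mem_range.mp this
    have hgt : ∀ i ∈ range d, k < i → a i = 0 := by
      intro i hi hki
      by_contra hi0
      have : i ≤ k := Finset.le_max' _ i (by simp only [mem_filter]; exact ⟨hi, hi0⟩)
      omega
    set Q := qq ξ (k + 1) with hQdef
    have hQ : (0 : ℝ) < (Q : ℝ) := by exact_mod_cast qq_pos ξ (k + 1)
    have hQP : (Q : ℝ) ≤ ((∏ k ∈ range d, N k : ℕ) : ℝ) := k5_qP d A N T τ h ξ hξ k hkd
    have hP : (0 : ℝ) < ((∏ k ∈ range d, N k : ℕ) : ℝ) := lt_of_lt_of_le hQ hQP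
    -- integrality
    have hint : ∀ i ∈ range d, ∃ z : ℤ, (Q : ℝ) * ((a i : ℝ) * (ξ i : ℝ)) = (z : ℝ) := by
      intro i hi
      by_cases hik : i ≤ k
      · obtain ⟨z, hz⟩ := qq_int' ξ (show i < k + 1 by omega)
        refine ⟨a i * z, ?_⟩
        have hz' : (Q : ℝ) * (ξ i : ℝ) = (z : ℝ) := by exact_mod_cast hz
        push_cast
        rw [← hz']
        ring
      · refine ⟨0, ?_⟩
        rw [hgt i hi (by omega)]
        simp
    choose! z hz using hint
    have hSz : (Q : ℝ) * ∑ i ∈ range d, (a i : ℝ) * (T * ξ i) =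
        T * ((∑ i ∈ range d, z i : ℤ) : ℝ) := by
      push_cast
      rw [mul_sum, mul_sum]
      apply sum_congr rfl
      intro i hi
      rw [← hz i hi]
      ring
    set S := ∑ i ∈ range d, (a i : ℝ) * (T * ξ i) with hSdef
    set Z := ∑ i ∈ range d, z i with hZdef
    have hSeq : S = T * (Z : ℝ) / Q := by
      rw [eq_div_iff hQ.ne']
      linarith
    have hTP : T / ((∏ k ∈ range d, N k : ℕ) : ℝ) ≤ T / Q :=
      div_le_div_of_nonneg_left (by linarith) hQ hQP
    constructor
    · by_cases hZ : Z = 0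
      · left
        rw [hSeq, hZ]
        simp
      · right
        refine hTP.trans ?_
        rw [hSeq, abs_div, abs_mul, abs_of_pos hQ, abs_of_pos (show (0:ℝ) < T by linarith)]
        have h1 : (1 : ℝ) ≤ |(Z : ℝ)| := by exact_mod_cast Int.one_le_abs hZ
        apply div_le_div_of_nonneg_right _ hQ.le
        nlinarith
    · intro hSpos
      have hZpos : (0 : ℝ) < (Z : ℝ) := by
        by_contra hcon
        push Not at hcon
        have : S ≤ 0 := by
          rw [hSeq]
          apply div_nonpos_of_nonpos_of_nonneg _ hQ.le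
          nlinarith
        linarith
      have hZ1 : (1 : ℝ) ≤ (Z : ℝ) := by
        have : (0 : ℤ) < Z := by exact_mod_cast hZpos
        exact_mod_cast this
      have hSge : T / Q ≤ S := by
        rw [hSeq]
        apply div_le_div_of_nonneg_right _ hQ.le
        nlinarith
      -- error
      set L := |Real.log (2 * T * d)| with hL
      have hterm : ∀ i ∈ range d, (a i : ℝ) * (T * ξ i) - (a i : ℝ) * Real.log (X i) ≤
          |(a i : ℝ)| * (T / (4 * A * (Q : ℝ)) + L) := by
        intro i hi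
        have hid := mem_range.mp hi
        by_cases hik : i ≤ k
        · have hr := k5_rad d A N T τ h ξ hξ i k hik hkd
          have h1 := hup i hid
          have h2 := hlo i hid
          have h3 : |T * ξ i - Real.log (X i)| ≤ T / (4 * A * (Q : ℝ)) + L := by
            rw [abs_le]
            constructor
            · have := abs_nonneg (Real.log (2 * T * d))
              linarith
            · have := le_abs_self (Real.log (2 * T * d))
              linarith
          calc (a i : ℝ) * (T * ξ i) - (a i : ℝ) * Real.log (X i)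
              = (a i : ℝ) * (T * ξ i - Real.log (X i)) := by ring
            _ ≤ |(a i : ℝ) * (T * ξ i - Real.log (X i))| := le_abs_self _
            _ = |(a i : ℝ)| * |T * ξ i - Real.log (X i)| := abs_mul _ _
            _ ≤ |(a i : ℝ)| * (T / (4 * A * (Q : ℝ)) + L) :=
                mul_le_mul_of_nonneg_left h3 (abs_nonneg _)
        · rw [hgt i hi (by omega)]
          simp
      have hsum : S - ∑ i ∈ range d, (a i : ℝ) * Real.log (X i) ≤
          (∑ i ∈ range d, |(a i : ℝ)|) * (T / (4 * A * (Q : ℝ)) + L) := by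
        rw [hSdef, ← sum_sub_distrib, sum_mul]
        exact sum_le_sum hterm
      have haR : ∑ i ∈ range d, |(a i : ℝ)| ≤ (A : ℝ) := by
        have : ((∑ k ∈ range d, |a k| : ℤ) : ℝ) ≤ ((A : ℤ) : ℝ) := by exact_mod_cast ha
        push_cast at this
        exact this
      have hL0 : 0 ≤ L := abs_nonneg _
      have hfac : 0 ≤ T / (4 * A * (Q : ℝ)) + L := by
        have : 0 ≤ T / (4 * A * (Q : ℝ)) := by
          apply div_nonneg (by linarith)
          positivity
        linarith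
      have h5 : (∑ i ∈ range d, |(a i : ℝ)|) * (T / (4 * A * (Q : ℝ)) + L) ≤
          (A : ℝ) * (T / (4 * A * (Q : ℝ)) + L) := mul_le_mul_of_nonneg_right haR hfac
      have h6 : (A : ℝ) * (T / (4 * A * (Q : ℝ)) + L) = T / (4 * Q) + A * L := by
        have hA0 : (A : ℝ) ≠ 0 := by linarith
        field_simp
      have h7 : (A : ℝ) * L ≤ T / (4 * Q) := by
        refine h.T3.trans ?_
        apply div_le_div_of_nonneg_left (by linarith) (by positivity)
        linarith
      have h8 : T / (4 * Q) = T / Q / 4 := by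
        field_simp
      have h9 : T / (2 * ((∏ k ∈ range d, N k : ℕ) : ℝ)) ≤ T / Q / 2 := by
        rw [div_div]
        apply div_le_div_of_nonneg_left (by linarith) (by positivity)
        linarith
      have h10 := h.T4
      linarith

/-- crude error bound -/
theorem err_bound (d A : ℕ) (N : ℕ → ℕ) (T τ : ℝ) (h : Par d A N T τ) (X : ℕ → ℝ)
    (ξ : ℕ → ℚ) (hξ : Valid d N ξ)
    (hup : ∀ k < d, T * ξ k - Real.log (X k) ≤ rad T N ξ k + Real.log (2 * T * d))
    (hlo : ∀ k < d, Real.log (X k) - T * ξ k ≤ rad T N ξ k) (k : ℕ) (hk : k < d) :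
    |T * ξ k - Real.log (X k)| ≤ 2 * T := by
  have hT := h.T_pos
  have hA : (1 : ℝ) ≤ (A : ℝ) := by exact_mod_cast h.A1
  have hP : (1 : ℝ) ≤ ((∏ k ∈ range d, N k : ℕ) : ℝ) := by exact_mod_cast h.P_pos
  have hrad : rad T N ξ k ≤ T := by
    unfold rad
    have h1 : (1 : ℝ) ≤ (qq ξ (k + 1) : ℝ) := by exact_mod_cast qq_pos ξ (k + 1)
    have h2 : (1 : ℝ) ≤ (N k : ℝ) := by exact_mod_cast h.Npos k
    apply div_le_self (by linarith)
    nlinarith
  have hL : |Real.log (2 * T * d)| ≤ T / 4 := by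
    have h1 : |Real.log (2 * T * d)| ≤ (A : ℝ) * |Real.log (2 * T * d)| := by
      have := abs_nonneg (Real.log (2 * T * d))
      nlinarith
    refine h1.trans (h.T3.trans ?_)
    apply div_le_div_of_nonneg_left (by linarith) (by norm_num)
    linarith
  have h1 := hup k hk
  have h2 := hlo k hk
  have h3 := le_abs_self (Real.log (2 * T * d))
  rw [abs_le]
  constructor <;> linarith

end Vale.Agent.P072
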