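import Vale.Agent.P072.K.Chain

/-! # P072-K2: maximisers exist -/

namespace Vale.Agent.P072

open Finset

namespace ExistsAux

/-- upper bound of one term -/
theorem term_le {x T s r : ℝ} (hx : 0 < x) (hr : r ≤ T) :
    x * s - Real.exp (s - r) ≤ x * (Real.log x + T - 1) := by
  have h1 := Real.add_one_le_exp (s - r - Real.log x)
  have h2 : Real.exp (s - r) = x * Real.exp (s - r - Real.log x) := by
    rw [Real.exp_sub (s - r), Real.exp_log hx]
    field_simp
  rw [h2]
  nlinarith [mul_le_mul_of_nonneg_left h1 hx.le, mul_le_mul_of_nonneg_left hr hx.le]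

/-- second upper bound of one term -/
theorem term_le' {x T s r : ℝ} (hx : 0 < x) (hr : r ≤ T) :
    x * s - Real.exp (s - r) ≤ -(x * s) + 2 * x * (Real.log (2 * x) + T - 1) := by
  have h2x : 0 < 2 * x := by positivity
  have h1 := Real.add_one_le_exp (s - r - Real.log (2 * x))
  have h2 : Real.exp (s - r) = (2 * x) * Real.exp (s - r - Real.log (2 * x)) := by
    rw [Real.exp_sub (s - r), Real.exp_log h2x]
    field_simp
  rw [h2]
  nlinarith [mul_le_mul_of_nonneg_left h1 h2x.le, mul_le_mul_of_nonneg_left hr h2x.le]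

theorem rad_le (d A : ℕ) (N : ℕ → ℕ) (T τ : ℝ) (h : Par d A N T τ) (ξ : ℕ → ℚ) (k : ℕ) :
    rad T N ξ k ≤ T := by
  unfold rad
  have h1 : (1 : ℝ) ≤ (qq ξ (k + 1) : ℝ) := by exact_mod_cast qq_pos ξ (k + 1)
  have h2 : (1 : ℝ) ≤ (N k : ℝ) := by exact_mod_cast h.Npos k
  have h3 : (1 : ℝ) ≤ (qq ξ (k + 1) : ℝ) * N k := one_le_mul_of_one_le_of_one_le h1 h2
  have hT := h.T_pos
  rw [div_le_iff₀ (by linarith)]
  nlinarith

/-- truncated sequence -/
def trunc (d : ℕ) (ξ : ℕ → ℚ) : ℕ → ℚ := fun k => if k < d then ξ k else 0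

theorem qq_trunc (d : ℕ) (ξ : ℕ → ℚ) (k : ℕ) (hk : k ≤ d) : qq (trunc d ξ) k = qq ξ k := by
  apply qq_congr
  intro i hi
  simp only [trunc]
  rw [if_pos (by omega)]

theorem valid_trunc (d : ℕ) (N : ℕ → ℕ) (ξ : ℕ → ℚ) (h : Valid d N ξ) :
    Valid d N (trunc d ξ) := by
  constructor
  · intro k hk
    rw [qq_trunc d ξ k hk.le]
    simp only [trunc]
    rw [if_pos hk]
    exact h.1 k hk
  · intro i j hij hj
    simp only [trunc]
    rw [if_pos hj, if_pos (by omega)]
    exact h.2 i j hij hj

theorem val_trunc (d : ℕ) (T : ℝ) (N : ℕ → ℕ) (X : ℕ → ℝ) (ξ : ℕ → ℚ) :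
    val d T N X (trunc d ξ) = val d T N X ξ := by
  unfold val
  refine Finset.sum_congr rfl fun k hk => ?_
  have hk' := Finset.mem_range.1 hk
  have h1 : rad T N (trunc d ξ) k = rad T N ξ k := by
    unfold rad
    rw [qq_trunc d ξ (k + 1) hk']
  have h2 : trunc d ξ k = ξ k := by
    simp only [trunc]
    rw [if_pos hk']
  rw [h1, h2]

end ExistsAux

open ExistsAux in
theorem exists_maxi (d A : ℕ) (N : ℕ → ℕ) (T τ : ℝ) (h : Par d A N T τ) (X : ℕ → ℝ)
    (hX : ∀ k < d, 0 < X k) : ∃ ξ, IsMaxi d T N X ξ := by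
  classical
  have hT : 0 < T := by linarith [h.T_pos]
  set P := ∏ k ∈ range d, N k with hP
  set C : ℝ := ∑ k ∈ range d, |X k * (Real.log (X k) + T - 1)| with hC
  set L : ℝ := val d T N X (fun _ => 0) - C with hL
  -- bound for the sequence
  let b : ℕ → ℝ := fun k => (|L| + |2 * X k * (Real.log (2 * X k) + T - 1)|) / X k
  obtain ⟨B, hB⟩ := exists_nat_ge (∑ k ∈ range d, (b k / T * (P.factorial : ℝ)))
  have hbnn : ∀ k ∈ range d, 0 ≤ b k / T * (P.factorial : ℝ) := by
    intro k hk
    have := hX k (Finset.mem_range.1 hk)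
    positivity
  -- every valid sequence with large value has bounded entries
  have hbound : ∀ ξ, Valid d N ξ → val d T N X (fun _ => 0) ≤ val d T N X ξ → ∀ k < d,
      ∃ z : ℤ, z ∈ Set.Icc (-(B : ℤ)) B ∧ ξ k = (z : ℚ) / (P.factorial : ℚ) := by
    intro ξ hξ hval k hk
    have hterm : L ≤ X k * (T * ξ k) - Real.exp (T * ξ k - rad T N ξ k) := by
      have h1 : val d T N X ξ = (X k * (T * ξ k) - Real.exp (T * ξ k - rad T N ξ k)) +
          ∑ j ∈ (range d).erase k, (X j * (T * ξ j) - Real.exp (T * ξ j - rad T N ξ j)) := by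
        unfold val
        exact (Finset.add_sum_erase _
          (fun j => X j * (T * (ξ j : ℝ)) - Real.exp (T * (ξ j : ℝ) - rad T N ξ j))
          (Finset.mem_range.2 hk)).symm
      have h2 : ∑ j ∈ (range d).erase k, (X j * (T * ξ j) - Real.exp (T * ξ j - rad T N ξ j)) ≤
          C := by
        calc ∑ j ∈ (range d).erase k, (X j * (T * ξ j) - Real.exp (T * ξ j - rad T N ξ j))
            ≤ ∑ j ∈ (range d).erase k, |X j * (Real.log (X j) + T - 1)| := by
              refine Finset.sum_le_sum fun j hj => ?_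
              have hj' := Finset.mem_range.1 (Finset.mem_of_mem_erase hj)
              exact (term_le (hX j hj') (rad_le d A N T τ h ξ j)).trans (le_abs_self _)
          _ ≤ C := Finset.sum_le_sum_of_subset_of_nonneg (Finset.erase_subset _ _)
              fun _ _ _ => abs_nonneg _
      linarith
    have hxk := hX k hk
    set s : ℝ := T * ξ k with hs
    have hlow : L ≤ X k * s := by
      have := Real.exp_pos (s - rad T N ξ k)
      linarith
    have hup := hterm.trans (term_le' (x := X k) (s := s) hxk (rad_le d A N T τ h ξ k))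
    have habs : |s| ≤ b k := by
      have h1 : |X k * s| ≤ |L| + |2 * X k * (Real.log (2 * X k) + T - 1)| := by
        rw [abs_le]
        constructor
        · have := neg_abs_le L
          have := abs_nonneg (2 * X k * (Real.log (2 * X k) + T - 1))
          linarith
        · have := neg_abs_le L
          have := le_abs_self (2 * X k * (Real.log (2 * X k) + T - 1))
          linarith
      rw [abs_mul, abs_of_pos hxk] at h1
      show |s| ≤ (|L| + |2 * X k * (Real.log (2 * X k) + T - 1)|) / X k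
      rw [le_div_iff₀ hxk]
      linarith
    -- integrality
    have hqle : qq ξ (k + 1) ≤ P := by
      refine (qq_le d N ξ hξ (k + 1) hk).trans ?_
      rw [hP]
      exact Finset.prod_le_prod_of_subset_of_one_le'
        (Finset.range_subset_range.2 hk) (fun i _ _ => h.Npos i)
    obtain ⟨c, hc⟩ := Nat.dvd_factorial (qq_pos ξ (k + 1)) hqle
    obtain ⟨z, hz⟩ := qq_int ξ k
    have hfac : (P.factorial : ℚ) ≠ 0 := by exact_mod_cast P.factorial_ne_zero
    have hzz : ξ k = ((c * z : ℤ) : ℚ) / (P.factorial : ℚ) := by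
      rw [eq_div_iff hfac, hc]
      push_cast
      rw [← hz]
      ring
    refine ⟨c * z, ?_, hzz⟩
    have hreal : (((c * z : ℤ)) : ℝ) = s / T * (P.factorial : ℝ) := by
      have h1 : (ξ k : ℝ) * (P.factorial : ℝ) = ((c * z : ℤ) : ℝ) := by
        have h2 : ξ k * (P.factorial : ℚ) = ((c * z : ℤ) : ℚ) := by
          rw [hzz]
          field_simp
        exact_mod_cast h2
      rw [← h1, hs]
      field_simp
    have habs2 : |(((c * z : ℤ)) : ℝ)| ≤ (B : ℝ) := by
      rw [hreal, abs_mul, abs_div, abs_of_pos hT, abs_of_nonneg (by positivity :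
        (0 : ℝ) ≤ (P.factorial : ℝ))]
      refine le_trans ?_ hB
      refine le_trans ?_ (Finset.single_le_sum hbnn (Finset.mem_range.2 hk))
      gcongr
    rw [Set.mem_Icc]
    rw [abs_le] at habs2
    constructor
    · exact_mod_cast habs2.1
    · exact_mod_cast habs2.2
  -- the finite set of candidates
  let mk : (Fin d → Set.Icc (-(B : ℤ)) B) → (ℕ → ℚ) := fun f k =>
    if hk : k < d then (((f ⟨k, hk⟩ : Set.Icc (-(B : ℤ)) B) : ℤ) : ℚ) / (P.factorial : ℚ) else 0
  have hfin : (Set.range mk).Finite := Set.finite_range mk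
  have hzero : Valid d N (fun _ => (0 : ℚ)) := by
    constructor
    · intro k _
      rw [mul_zero]
      exact h.Npos k
    · intro i j _ _
      exact le_rfl
  have hmem : ∀ ξ, Valid d N ξ → val d T N X (fun _ => 0) ≤ val d T N X ξ →
      trunc d ξ ∈ Set.range mk := by
    intro ξ hξ hval
    have hb := hbound ξ hξ hval
    choose z hz1 hz2 using hb
    refine ⟨fun i => ⟨z i i.2, hz1 i i.2⟩, ?_⟩
    funext k
    show (if hk : k < d then ((z k hk : ℤ) : ℚ) / (P.factorial : ℚ) else 0) = trunc d ξ k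
    by_cases hk : k < d
    · rw [dif_pos hk]
      simp only [trunc]
      rw [if_pos hk, hz2 k hk]
    · rw [dif_neg hk]
      simp only [trunc]
      rw [if_neg hk]
  have hfin2 : (Set.range mk ∩ {ξ | Valid d N ξ}).Finite := hfin.subset Set.inter_subset_left
  have hne : (Set.range mk ∩ {ξ | Valid d N ξ}).Nonempty :=
    ⟨trunc d (fun _ => 0), hmem _ hzero le_rfl, valid_trunc d N _ hzero⟩
  obtain ⟨ξ, hξmem, hξmax⟩ := Set.exists_max_image _ (val d T N X) hfin2 hne
  refine ⟨ξ, hξmem.2, ?_⟩
  intro ξ' hξ'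
  have h0 : val d T N X (fun _ => 0) ≤ val d T N X ξ := by
    have := hξmax (trunc d (fun _ => 0)) ⟨hmem _ hzero le_rfl, valid_trunc d N _ hzero⟩
    rwa [val_trunc] at this
  rcases le_total (val d T N X ξ') (val d T N X (fun _ => 0)) with hle | hle
  · exact hle.trans h0
  · have := hξmax (trunc d ξ') ⟨hmem _ hξ' hle, valid_trunc d N _ hξ'⟩
    rwa [val_trunc] at this

end Vale.Agent.P072
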