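import Vale.Agent.P072.K.Chain

/-! # P072-K3: the maximiser is not too high -/

namespace Vale.Agent.P072

open Finset

/-- the competitor: lower everything from `k` on by one -/
def shiftDown (ξ : ℕ → ℚ) (k : ℕ) : ℕ → ℚ := fun j => if j < k then ξ j else ξ j - 1

theorem den_shift (ξ : ℕ → ℚ) (k j q : ℕ) :
    ((q : ℚ) * shiftDown ξ k j).den = ((q : ℚ) * ξ j).den := by
  unfold shiftDown
  split_ifs with h
  · rfl
  · have : (q : ℚ) * (ξ j - 1) = (q : ℚ) * ξ j - ((q : ℤ) : ℚ) := by
      push_cast
      ring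
    rw [this, Rat.sub_intCast_den]

theorem qq_shift (ξ : ℕ → ℚ) (k j : ℕ) : qq (shiftDown ξ k) j = qq ξ j := by
  induction j with
  | zero => rfl
  | succ j ih => rw [qq_succ, qq_succ, ih, den_shift]

theorem maxi_upper (d A : ℕ) (N : ℕ → ℕ) (T τ : ℝ) (h : Par d A N T τ) (X : ℕ → ℝ)
    (hX : ∀ k < d, 0 < X k) (hmono : ∀ i j, i ≤ j → j < d → X j ≤ X i) (ξ : ℕ → ℚ)
    (hξ : IsMaxi d T N X ξ) (k : ℕ) (hk : k < d) :
    T * ξ k - Real.log (X k) ≤ rad T N ξ k + Real.log (2 * T * d) := by
  have hT : 2 ≤ T := h.T_pos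
  have hval : Valid d N (shiftDown ξ k) := by
    refine ⟨fun j hj => ?_, fun i j hij hj => ?_⟩
    · rw [qq_shift, den_shift]
      exact hξ.1.1 j hj
    · have h1 := hξ.1.2 i j hij hj
      unfold shiftDown
      split_ifs <;> first | linarith | omega
  have hopt := hξ.2 _ hval
  have hrad : ∀ j, rad T N (shiftDown ξ k) j = rad T N ξ j := by
    intro j
    unfold rad
    rw [qq_shift]
  have hsum : 0 ≤ ∑ j ∈ range d, (if j < k then 0 else
      X j * T - (1 - Real.exp (-T)) * Real.exp (T * ξ j - rad T N ξ j)) := by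
    have hdiff : val d T N X ξ - val d T N X (shiftDown ξ k) = ∑ j ∈ range d, (if j < k then 0 else
      X j * T - (1 - Real.exp (-T)) * Real.exp (T * ξ j - rad T N ξ j)) := by
      unfold val
      rw [← Finset.sum_sub_distrib]
      refine Finset.sum_congr rfl (fun j _ => ?_)
      rw [hrad]
      unfold shiftDown
      split_ifs with hj
      · ring
      · have : Real.exp (T * ((ξ j - 1 : ℚ) : ℝ) - rad T N ξ j)
            = Real.exp (-T) * Real.exp (T * ξ j - rad T N ξ j) := by
          rw [← Real.exp_add]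
          congr 1
          push_cast
          ring
        rw [this]
        push_cast
        ring
    linarith
  have he : Real.exp (-T) ≤ 1 / 2 := by
    have h1 : Real.exp (-T) ≤ Real.exp (-1) := Real.exp_le_exp.2 (by linarith)
    have h2 : Real.exp (-1) < 1 / 2 := by
      rw [Real.exp_neg, inv_lt_comm₀ (Real.exp_pos 1) (by norm_num)]
      have := Real.exp_one_gt_d9
      norm_num at this ⊢
      linarith
    linarith
  have hXk := hX k hk
  have hle : ∑ j ∈ range d, (if j < k then 0 else
      X j * T - (1 - Real.exp (-T)) * Real.exp (T * ξ j - rad T N ξ j))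
      ≤ ∑ j ∈ range d, (X k * T - if j = k then
        (1 - Real.exp (-T)) * Real.exp (T * ξ k - rad T N ξ k) else 0) := by
    refine Finset.sum_le_sum (fun j hj => ?_)
    rw [Finset.mem_range] at hj
    have hpos : 0 ≤ X k * T := mul_nonneg hXk.le (by linarith)
    by_cases hjk : j < k
    · rw [if_pos hjk, if_neg (by omega)]
      linarith
    · rw [if_neg hjk]
      have hXj : X j ≤ X k := hmono k j (by omega) hj
      have h1 : X j * T ≤ X k * T := mul_le_mul_of_nonneg_right hXj (by linarith)
      by_cases hjk' : j = k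
      · subst hjk'
        rw [if_pos rfl]
      · rw [if_neg hjk']
        have h2 : 0 ≤ (1 - Real.exp (-T)) * Real.exp (T * ξ j - rad T N ξ j) :=
          mul_nonneg (by linarith) (Real.exp_pos _).le
        linarith
  rw [Finset.sum_sub_distrib, Finset.sum_const, Finset.card_range, nsmul_eq_mul,
    Finset.sum_ite_eq' (range d) k, if_pos (Finset.mem_range.2 hk)] at hle
  have hexp : Real.exp (T * ξ k - rad T N ξ k) ≤ 2 * T * d * X k := by
    have h3 : (1 - Real.exp (-T)) * Real.exp (T * ξ k - rad T N ξ k) ≤ d * (X k * T) := by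
      linarith
    have h4 : (1 / 2 : ℝ) * Real.exp (T * ξ k - rad T N ξ k)
        ≤ (1 - Real.exp (-T)) * Real.exp (T * ξ k - rad T N ξ k) :=
      mul_le_mul_of_nonneg_right (by linarith) (Real.exp_pos _).le
    linarith
  have hd : (0 : ℝ) < d := by
    have : 0 < d := by omega
    exact_mod_cast this
  have hlog := Real.log_le_log (Real.exp_pos _) hexp
  rw [Real.log_exp, Real.log_mul (by positivity) hXk.ne'] at hlog
  linarith

end Vale.Agent.P072
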