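import Vale.Agent.P072.K.Chain

/-! # P072-K1: parameters exist -/

namespace Vale.Agent.P072

open Finset Filter

theorem sum_Ioo_two_pow (i n : ℕ) :
    ∑ j ∈ Ioo i (i + 1 + n), 2 ^ (i + 1 + n - j) + 2 = 2 ^ (n + 1) := by
  induction n with
  | zero =>
    have : Ioo i (i + 1 + 0) = ∅ := by
      ext j
      simp only [mem_Ioo, notMem_empty, iff_false]
      omega
    rw [this]
    simp
  | succ n ih =>
    have h1 : Ioo i (i + 1 + (n + 1)) = insert (i + 1 + n) (Ioo i (i + 1 + n)) := by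
      ext j
      simp only [mem_Ioo, mem_insert]
      omega
    have h2 : (i + 1 + n) ∉ Ioo i (i + 1 + n) := by simp
    rw [h1, sum_insert h2]
    have h3 : ∑ j ∈ Ioo i (i + 1 + n), 2 ^ (i + 1 + (n + 1) - j) =
        2 * ∑ j ∈ Ioo i (i + 1 + n), 2 ^ (i + 1 + n - j) := by
      rw [mul_sum]
      refine sum_congr rfl ?_
      intro j hj
      rw [mem_Ioo] at hj
      have : i + 1 + (n + 1) - j = (i + 1 + n - j) + 1 := by omega
      rw [this, pow_succ]
      ring
    have h4 : i + 1 + (n + 1) - (i + 1 + n) = 1 := by omega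
    rw [h3, h4, pow_succ 2 (n + 1), ← ih]
    ring

theorem exists_par (d A : ℕ) (hA : 1 ≤ A) (τ : ℝ) : ∃ N : ℕ → ℕ, ∃ T : ℝ, Par d A N T τ := by
  let N : ℕ → ℕ := fun k => (4 * A) ^ (2 ^ (d - k))
  have hN : ∀ k, N k = (4 * A) ^ (2 ^ (d - k)) := fun k => rfl
  have h4A : 1 ≤ 4 * A := by omega
  have hNpos : ∀ k, 1 ≤ N k := fun k => Nat.one_le_pow _ _ (by omega)
  have hN2 : ∀ i j, i < j → j < d → 2 * N j ≤ N i := by
    intro i j hij hjd
    rw [hN, hN]
    have h1 : 2 ^ (d - j) + 1 ≤ 2 ^ (d - i) := by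
      have h2 : 2 ^ (d - j + 1) ≤ 2 ^ (d - i) := Nat.pow_le_pow_right (by omega) (by omega)
      have h3 : 1 ≤ 2 ^ (d - j) := Nat.one_le_two_pow
      rw [pow_succ] at h2
      omega
    calc 2 * (4 * A) ^ 2 ^ (d - j) ≤ (4 * A) * (4 * A) ^ 2 ^ (d - j) :=
          Nat.mul_le_mul_right _ (by omega)
      _ = (4 * A) ^ (2 ^ (d - j) + 1) := by rw [pow_succ]; ring
      _ ≤ _ := Nat.pow_le_pow_right (by omega) h1
  have hN4 : ∀ i < d, 4 * A * ∏ j ∈ Ioo i d, N j ≤ N i := by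
    intro i hi
    obtain ⟨n, rfl⟩ : ∃ n, d = i + 1 + n := ⟨d - (i + 1), by omega⟩
    simp only [hN]
    rw [prod_pow_eq_pow_sum]
    have h1 := sum_Ioo_two_pow i n
    have h2 : i + 1 + n - i = n + 1 := by omega
    rw [h2, ← h1]
    calc 4 * A * (4 * A) ^ ∑ j ∈ Ioo i (i + 1 + n), 2 ^ (i + 1 + n - j)
        = (4 * A) ^ (∑ j ∈ Ioo i (i + 1 + n), 2 ^ (i + 1 + n - j) + 1) := by
          rw [pow_succ]; ring
      _ ≤ _ := Nat.pow_le_pow_right (by omega) (by omega)
  set P : ℝ := ((∏ k ∈ range d, N k : ℕ) : ℝ) with hP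
  have hP1 : (1 : ℝ) ≤ P := by
    rw [hP]
    exact_mod_cast Nat.succ_le_of_lt (Finset.prod_pos fun k _ => hNpos k)
  have hP0 : 0 < P := by linarith
  have e1 : ∀ᶠ T : ℝ in atTop, 2 * P ^ 2 ≤ T := eventually_ge_atTop _
  have e2 : ∀ᶠ T : ℝ in atTop, 2 * (d : ℝ) * T * Real.exp (-(T / (2 * P))) < 1 := by
    have h1 := Real.tendsto_pow_mul_exp_neg_atTop_nhds_zero 1
    have h2 : Tendsto (fun T : ℝ => T / (2 * P)) atTop atTop :=
      tendsto_id.atTop_div_const (by positivity)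
    have h3 := (h1.comp h2).const_mul (2 * (d : ℝ) * (2 * P))
    rw [mul_zero] at h3
    have h4 := h3.eventually (gt_mem_nhds (show (0 : ℝ) < 1 by norm_num))
    filter_upwards [h4] with T hT
    simp only [Function.comp, pow_one] at hT
    have e : 2 * (d : ℝ) * (2 * P) * (T / (2 * P) * Real.exp (-(T / (2 * P)))) =
        2 * (d : ℝ) * T * Real.exp (-(T / (2 * P))) := by
      field_simp
    rwa [e] at hT
  have e3 : ∀ᶠ T : ℝ in atTop, (A : ℝ) * |Real.log (2 * T * d)| ≤ T / (4 * P) := by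
    rcases Nat.eq_zero_or_pos d with hd | hd
    · filter_upwards [eventually_ge_atTop (0 : ℝ)] with T hT
      rw [hd]
      simp only [Nat.cast_zero, mul_zero, Real.log_zero, abs_zero]
      positivity
    · have hd' : (0 : ℝ) < d := by exact_mod_cast hd
      have hA' : (0 : ℝ) < A := by exact_mod_cast hA
      have h1 : Tendsto (fun T : ℝ => 2 * T * d) atTop atTop :=
        (tendsto_id.const_mul_atTop (by norm_num : (0 : ℝ) < 2)).atTop_mul_const hd'
      have h2 := Real.isLittleO_log_id_atTop.comp_tendsto h1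
      have h3 := h2.def (show (0 : ℝ) < 1 / (A * (4 * P) * (2 * d)) by positivity)
      filter_upwards [h3, eventually_ge_atTop (0 : ℝ)] with T hT hT0
      simp only [Function.comp, id, Real.norm_eq_abs] at hT
      rw [abs_of_nonneg (show (0 : ℝ) ≤ 2 * T * d by positivity)] at hT
      calc (A : ℝ) * |Real.log (2 * T * d)|
          ≤ A * (1 / (A * (4 * P) * (2 * d)) * (2 * T * d)) :=
            mul_le_mul_of_nonneg_left hT hA'.le
        _ = T / (4 * P) := by field_simp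
  have e4 : ∀ᶠ T : ℝ in atTop, τ ≤ T / (2 * P) := by
    filter_upwards [eventually_ge_atTop (τ * (2 * P))] with T hT
    rwa [le_div_iff₀ (by positivity)]
  obtain ⟨T, h1, h2, h3, h4⟩ := (e1.and (e2.and (e3.and e4))).exists
  exact ⟨N, T, ⟨hA, hNpos, hN2, hN4, h1, h2, h3, h4⟩⟩

end Vale.Agent.P072
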