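import Vale.Agent.P072.K.Chain

/-! # P072-K4b: Dirichlet approximation and separation of rationals -/

namespace Vale.Agent.P072

open Finset

theorem dk_sep (a b : ℚ) (hab : a < b) : 1 / ((a.den : ℚ) * b.den) ≤ b - a := by
  have ha : (0 : ℚ) < a.den := by exact_mod_cast a.pos
  have hb : (0 : ℚ) < b.den := by exact_mod_cast b.pos
  rw [div_le_iff₀ (mul_pos ha hb)]
  have e : (b - a) * (a.den * b.den) = (((b.num * a.den - a.num * b.den : ℤ)) : ℚ) := by
    push_cast
    rw [← Rat.mul_den_eq_num b, ← Rat.mul_den_eq_num a]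
    ring
  have hp : 0 < (b - a) * (a.den * b.den) := mul_pos (sub_pos.mpr hab) (mul_pos ha hb)
  rw [e] at hp ⊢
  have h1 : 0 < (b.num * a.den - a.num * b.den : ℤ) := by exact_mod_cast hp
  exact_mod_cast (by omega : (1 : ℤ) ≤ b.num * a.den - a.num * b.den)

/-- rationals with different values are separated -/
theorem rat_sep (q : ℕ) (hq : 0 < q) (u v : ℚ) (huv : u < v) :
    1 / ((q : ℝ) * ((q : ℚ) * u).den * ((q : ℚ) * v).den) ≤ (v : ℝ) - u := by
  have hq' : (0 : ℚ) < q := by exact_mod_cast hq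
  have h := dk_sep ((q : ℚ) * u) ((q : ℚ) * v) (mul_lt_mul_of_pos_left huv hq')
  have h2 : 1 / ((q : ℚ) * ((q : ℚ) * u).den * ((q : ℚ) * v).den) ≤ v - u := by
    have e : 1 / ((q : ℚ) * ((q : ℚ) * u).den * ((q : ℚ) * v).den) =
        1 / q * (1 / ((((q : ℚ) * u).den : ℚ) * ((q : ℚ) * v).den)) := by
      rw [one_div_mul_one_div, mul_assoc]
    have e2 : v - u = 1 / q * ((q : ℚ) * v - (q : ℚ) * u) := by
      field_simp
    rw [e, e2]
    exact mul_le_mul_of_nonneg_left h (by positivity)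
  have h3 : (((1 / ((q : ℚ) * ((q : ℚ) * u).den * ((q : ℚ) * v).den) : ℚ)) : ℝ) ≤
      ((v - u : ℚ) : ℝ) := Rat.cast_le.mpr h2
  rw [Rat.cast_div, Rat.cast_mul, Rat.cast_mul, Rat.cast_sub, Rat.cast_one, Rat.cast_natCast,
    Rat.cast_natCast, Rat.cast_natCast] at h3
  exact h3

/-- Dirichlet -/
theorem dirichlet_q (q N : ℕ) (hq : 0 < q) (hN : 0 < N) (α : ℝ) :
    ∃ u : ℚ, ((q : ℚ) * u).den ≤ N ∧ |α - u| < 1 / ((q : ℝ) * ((q : ℚ) * u).den * N) := by
  obtain ⟨p, hp, hden⟩ := Real.exists_rat_abs_sub_le_and_den_le ((q : ℝ) * α) hN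
  have hq' : (0 : ℚ) < q := by exact_mod_cast hq
  have hqr : (0 : ℝ) < q := by exact_mod_cast hq
  have hNr : (0 : ℝ) < N := by exact_mod_cast hN
  have hd : (0 : ℝ) < p.den := by exact_mod_cast p.pos
  have e : (q : ℚ) * (p / q) = p := by field_simp
  refine ⟨p / q, ?_, ?_⟩
  · rw [e]; exact hden
  · rw [e]
    have e3 : α - ((p / q : ℚ) : ℝ) = ((q : ℝ) * α - p) / q := by
      push_cast
      field_simp
    rw [e3, abs_div, abs_of_pos hqr]
    calc |(q : ℝ) * α - p| / q ≤ 1 / ((N + 1) * p.den) / q := by gcongr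
      _ = 1 / ((q : ℝ) * p.den * (N + 1)) := by
          rw [div_div]; congr 1; ring
      _ < 1 / ((q : ℝ) * p.den * N) := by
          apply one_div_lt_one_div_of_lt (by positivity)
          apply mul_lt_mul_of_pos_left _ (by positivity)
          linarith

end Vale.Agent.P072
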