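import Vale.Agent.P072.K.Compete
import Vale.Agent.P072.K.Dirichlet

/-! # P072-K4c: the maximiser is not too low -/

namespace Vale.Agent.P072

open Finset

private theorem N_le_P {d A : ℕ} {N : ℕ → ℕ} {T τ : ℝ} (h : Par d A N T τ) (k : ℕ) (hk : k < d) :
    N k ≤ ∏ i ∈ range d, N i :=
  Finset.single_le_prod' (f := N) (fun i _ => h.Npos i) (mem_range.mpr hk)

private theorem qq_le_P {d A : ℕ} {N : ℕ → ℕ} {T τ : ℝ} (h : Par d A N T τ) (ξ : ℕ → ℚ)
    (hξ : Valid d N ξ) (k : ℕ) (hk : k ≤ d) : qq ξ k ≤ ∏ i ∈ range d, N i := by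
  refine (qq_le d N ξ hξ k hk).trans ?_
  exact Finset.prod_le_prod_of_subset_of_one_le' (range_mono hk) (fun i _ _ => h.Npos i)

/-- separation of at least `2 / T` -/
private theorem sep_two {d A : ℕ} {N : ℕ → ℕ} {T τ : ℝ} (h : Par d A N T τ) (ξ : ℕ → ℚ)
    (hξ : Valid d N ξ) (k : ℕ) (hk : k < d) (u : ℚ) (hr : ((qq ξ k : ℚ) * u).den ≤ N k)
    (hu : ξ k < u) : T * ξ k + 2 ≤ T * u := by
  have hT : 0 < T := lt_of_lt_of_le two_pos h.T_pos
  have hs := rat_sep (qq ξ k) (qq_pos ξ k) (ξ k) u hu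
  have hq : 0 < qq ξ k := qq_pos ξ k
  have hrk : 0 < ((qq ξ k : ℚ) * ξ k).den := Rat.den_pos _
  have hru : 0 < ((qq ξ k : ℚ) * u).den := Rat.den_pos _
  have h1 : qq ξ k * ((qq ξ k : ℚ) * ξ k).den ≤ ∏ i ∈ range d, N i := by
    rw [← qq_succ]; exact qq_le_P h ξ hξ (k + 1) hk
  have h2 : ((qq ξ k : ℚ) * u).den ≤ ∏ i ∈ range d, N i := hr.trans (N_le_P h k hk)
  have h3 : qq ξ k * ((qq ξ k : ℚ) * ξ k).den * ((qq ξ k : ℚ) * u).den ≤
      (∏ i ∈ range d, N i) * (∏ i ∈ range d, N i) := Nat.mul_le_mul h1 h2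
  have h3' : ((qq ξ k : ℝ) * ((qq ξ k : ℚ) * ξ k).den * ((qq ξ k : ℚ) * u).den) ≤
      ((∏ i ∈ range d, N i : ℕ) : ℝ) ^ 2 := by
    rw [sq]; exact_mod_cast h3
  have hpos : (0 : ℝ) < (qq ξ k : ℝ) * ((qq ξ k : ℚ) * ξ k).den * ((qq ξ k : ℚ) * u).den := by
    positivity
  have h4 : 2 * ((qq ξ k : ℝ) * ((qq ξ k : ℚ) * ξ k).den * ((qq ξ k : ℚ) * u).den) ≤ T := by
    have := h.T1; linarith
  have h5 : 2 ≤ T * (1 / ((qq ξ k : ℝ) * ((qq ξ k : ℚ) * ξ k).den * ((qq ξ k : ℚ) * u).den)) := by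
    rw [mul_one_div, le_div_iff₀ hpos]; exact h4
  have h6 := mul_le_mul_of_nonneg_left hs hT.le
  nlinarith [h5, h6]

theorem maxi_lower (d A : ℕ) (N : ℕ → ℕ) (T τ : ℝ) (h : Par d A N T τ) (X : ℕ → ℝ)
    (hX : ∀ k < d, 0 < X k) (hmono : ∀ i j, i ≤ j → j < d → X j ≤ X i) (ξ : ℕ → ℚ)
    (hξ : IsMaxi d T N X ξ) (k : ℕ) (hk : k < d) :
    Real.log (X k) - T * ξ k ≤ rad T N ξ k := by
  induction k using Nat.strong_induction_on with
  | _ k ih =>
  by_contra hcon
  push Not at hcon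
  have hT : 0 < T := lt_of_lt_of_le two_pos h.T_pos
  have hV := hξ.1
  have hNk : 0 < N k := h.Npos k
  have hq : 0 < qq ξ k := qq_pos ξ k
  have hrk : 0 < ((qq ξ k : ℚ) * ξ k).den := Rat.den_pos _
  obtain ⟨u, hr, hu⟩ := dirichlet_q (qq ξ k) (N k) hq hNk (Real.log (X k) / T)
  have hru : 0 < ((qq ξ k : ℚ) * u).den := Rat.den_pos _
  have hqR : (0 : ℝ) < qq ξ k := by exact_mod_cast hq
  have hNR : (0 : ℝ) < N k := by exact_mod_cast hNk
  have hrkR : (0 : ℝ) < (((qq ξ k : ℚ) * ξ k).den : ℝ) := by exact_mod_cast hrk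
  have hruR : (0 : ℝ) < (((qq ξ k : ℚ) * u).den : ℝ) := by exact_mod_cast hru
  -- |w - T u| < T / (q r N)
  have hu' : |Real.log (X k) - T * u| < T / ((qq ξ k : ℝ) * ((qq ξ k : ℚ) * u).den * N k) := by
    have e1 : Real.log (X k) - T * u = T * (Real.log (X k) / T - u) := by
      field_simp
    rw [e1, abs_mul, abs_of_pos hT, div_eq_mul_one_div T]
    exact mul_lt_mul_of_pos_left hu hT
  have hu1 := (abs_lt.mp hu').1
  have hu2 := (abs_lt.mp hu').2
  have hrad : rad T N ξ k = T / ((qq ξ k : ℝ) * ((qq ξ k : ℚ) * ξ k).den * N k) := by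
    unfold rad; rw [qq_succ]; push_cast; rfl
  have hradpos : 0 < rad T N ξ k := by rw [hrad]; positivity
  have hbig : T / ((qq ξ k : ℝ) * ((qq ξ k : ℚ) * u).den * N k) ≤ T / ((qq ξ k : ℝ) * N k) := by
    apply div_le_div_of_nonneg_left hT.le (by positivity)
    have : (1 : ℝ) ≤ (((qq ξ k : ℚ) * u).den : ℝ) := by exact_mod_cast hru
    nlinarith [mul_pos hqR hNR]
  have hbig2 : T / ((qq ξ k : ℝ) * N k) ≤ T := by
    apply div_le_self hT.le
    have h1 : (1 : ℝ) ≤ qq ξ k := by exact_mod_cast hq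
    have h2 : (1 : ℝ) ≤ N k := by exact_mod_cast hNk
    nlinarith
  rcases lt_trichotomy u (ξ k) with hlt | heq | hgt
  · -- u < ξ k
    have hs := rat_sep (qq ξ k) hq u (ξ k) hlt
    have h6 := mul_le_mul_of_nonneg_left hs hT.le
    have h7 : T / ((qq ξ k : ℝ) * ((qq ξ k : ℚ) * u).den * N k) ≤
        T * (1 / ((qq ξ k : ℝ) * ((qq ξ k : ℚ) * u).den * ((qq ξ k : ℚ) * ξ k).den)) := by
      rw [mul_one_div]
      apply div_le_div_of_nonneg_left hT.le (by positivity)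
      have : (((qq ξ k : ℚ) * ξ k).den : ℝ) ≤ N k := by exact_mod_cast hV.1 k hk
      exact mul_le_mul_of_nonneg_left this (by positivity)
    nlinarith
  · -- u = ξ k
    subst heq
    rw [hrad] at hcon
    linarith
  · -- ξ k < u
    by_cases hall : ∀ i < k, u ≤ ξ i
    · obtain ⟨ξ', hV', hlt'⟩ := compete d A N T τ h X hX hmono ξ hV k hk u hall hr
        (by linarith) (by linarith) (sep_two h ξ hV k hk u hr hgt)
      exact absurd (hξ.2 ξ' hV') (not_le.mpr hlt')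
    · push Not at hall
      obtain ⟨i, hik, hiu⟩ := hall
      obtain ⟨j, rfl⟩ : ∃ j, k = j + 1 := ⟨k - 1, by omega⟩
      have hjd : j < d := by omega
      have hju : ξ j < u := lt_of_le_of_lt (hV.2 i j (by omega) hjd) hiu
      have hkj : ξ (j + 1) ≤ ξ j := hV.2 j (j + 1) (by omega) hk
      have hw : Real.log (X (j + 1)) ≤ Real.log (X j) :=
        Real.log_le_log (hX _ hk) (hmono j (j + 1) (by omega) hk)
      have ihj := ih j (by omega) hjd
      have hNj : N (j + 1) ≤ N j := by have := h.N2 j (j + 1) (by omega) hk; omega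
      have hNjR : (N (j + 1) : ℝ) ≤ N j := by exact_mod_cast hNj
      have hradj : rad T N ξ j ≤ T / ((qq ξ (j + 1) : ℝ) * N (j + 1)) := by
        unfold rad
        apply div_le_div_of_nonneg_left hT.le (by positivity)
        exact mul_le_mul_of_nonneg_left hNjR hqR.le
      obtain ⟨z, hz⟩ := qq_int ξ j
      have hden : ((qq ξ (j + 1) : ℚ) * ξ j).den = 1 := by rw [hz]; exact Rat.den_intCast z
      rcases eq_or_lt_of_le hkj with he | hl
      · rw [hrad, he, hden] at hcon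
        simp only [Nat.cast_one, mul_one] at hcon
        linarith
      · have hr' : ((qq ξ (j + 1) : ℚ) * ξ j).den ≤ N (j + 1) := by rw [hden]; exact hNk
        have hjuR : (ξ j : ℝ) < u := by exact_mod_cast hju
        have hTj : T * ξ j < T * u := mul_lt_mul_of_pos_left hjuR hT
        obtain ⟨ξ', hV', hlt'⟩ := compete d A N T τ h X hX hmono ξ hV (j + 1) hk (ξ j)
          (fun i hi => hV.2 i j (by omega) hjd) hr'
          (by rw [hden]; simp only [Nat.cast_one, mul_one]; linarith) (by linarith)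
          (sep_two h ξ hV (j + 1) hk (ξ j) hr' hl)
        exact absurd (hξ.2 ξ' hV') (not_le.mpr hlt')

end Vale.Agent.P072
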