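import Vale.Agent.P072.Pot
import Vale.Agent.P072.K.Params
import Vale.Agent.P072.K.Exists
import Vale.Agent.P072.K.Lower
import Vale.Agent.P072.K.Raise
import Vale.Agent.P072.K.Err
import Vale.Agent.P072.K.Bounds

/-! # P072-K6: the potential -/

namespace Vale.Agent.P072

open Finset

/-- `x` in the order given by `σ` -/
noncomputable def Xs {d : ℕ} (x : Fin d → ℝ) (σ : Equiv.Perm (Fin d)) (k : ℕ) : ℝ :=
  if h : k < d then x (σ ⟨k, h⟩) else 1

theorem Xs_fin {d : ℕ} (x : Fin d → ℝ) (σ : Equiv.Perm (Fin d)) (k : Fin d) :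
    Xs x σ k = x (σ k) := by
  simp [Xs]

theorem Xs_lt {d : ℕ} (x : Fin d → ℝ) (σ : Equiv.Perm (Fin d)) (k : ℕ) (h : k < d) :
    Xs x σ k = x (σ ⟨k, h⟩) := by
  simp [Xs, h]

theorem val_fin {d : ℕ} (T : ℝ) (N : ℕ → ℕ) (x : Fin d → ℝ) (σ : Equiv.Perm (Fin d))
    (ξ : ℕ → ℚ) : val d T N (Xs x σ) ξ =
      ∑ k : Fin d, (x (σ k) * (T * ξ k) - Real.exp (T * ξ k - rad T N ξ k)) := by
  rw [val, Finset.sum_range]
  simp [Xs_fin]

theorem sum_Xs {d : ℕ} (x : Fin d → ℝ) (σ : Equiv.Perm (Fin d)) (f : ℝ → ℝ) :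
    ∑ k ∈ range d, f (Xs x σ k) = ∑ i, f (x i) := by
  rw [Finset.sum_range]
  simp only [Xs_fin]
  exact Equiv.sum_comp σ (fun i => f (x i))

theorem val_perm_le {d : ℕ} (T : ℝ) (hT : 0 ≤ T) (N : ℕ → ℕ) (x : Fin d → ℝ)
    (σ σ' : Equiv.Perm (Fin d)) (hσ : Antitone (x ∘ σ)) (ξ : ℕ → ℚ) (hξ : Valid d N ξ) :
    val d T N (Xs x σ') ξ ≤ val d T N (Xs x σ) ξ := by
  rw [val_fin, val_fin, sum_sub_distrib, sum_sub_distrib]
  have hg : Antitone (fun k : Fin d => T * (ξ k : ℝ)) := by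
    intro i j hij
    have := hξ.2 i j hij j.2
    exact mul_le_mul_of_nonneg_left (by exact_mod_cast this) hT
  have hm : Monovary (x ∘ σ) (fun k : Fin d => T * (ξ k : ℝ)) := hσ.monovary hg
  have h := hm.sum_comp_perm_mul_le_sum_mul (σ := σ'.trans σ.symm)
  simp only [Function.comp_apply, Equiv.trans_apply, Equiv.apply_symm_apply] at h
  linarith

/-- the set of values -/
def valSet (d : ℕ) (T : ℝ) (N : ℕ → ℕ) (x : Fin d → ℝ) : Set ℝ :=
  {r | ∃ (σ : Equiv.Perm (Fin d)) (ξ : ℕ → ℚ), Valid d N ξ ∧ r = val d T N (Xs x σ) ξ}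

theorem exists_sorted {d : ℕ} (x : Fin d → ℝ) : ∃ σ : Equiv.Perm (Fin d), Antitone (x ∘ σ) := by
  refine ⟨Tuple.sort (fun i => -x i), ?_⟩
  have h := Tuple.monotone_sort (fun i => -x i)
  intro i j hij
  have := h hij
  simp only [Function.comp_apply] at this ⊢
  linarith

theorem exists_greatest (d A : ℕ) (N : ℕ → ℕ) (T τ : ℝ) (h : Par d A N T τ) (x : Fin d → ℝ)
    (hx : ∀ i, 0 < x i) :
    ∃ (σ : Equiv.Perm (Fin d)) (ξ : ℕ → ℚ), Antitone (x ∘ σ) ∧ IsMaxi d T N (Xs x σ) ξ ∧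
      IsGreatest (valSet d T N x) (val d T N (Xs x σ) ξ) := by
  obtain ⟨σ, hσ⟩ := exists_sorted x
  have hX : ∀ k < d, 0 < Xs x σ k := fun k hk => by rw [Xs_lt x σ k hk]; exact hx _
  obtain ⟨ξ, hξ⟩ := exists_maxi d A N T τ h (Xs x σ) hX
  refine ⟨σ, ξ, hσ, hξ, ⟨⟨σ, ξ, hξ.1, rfl⟩, ?_⟩⟩
  rintro r ⟨σ', ξ', hv, rfl⟩
  exact (val_perm_le T (by linarith [h.T_pos]) N x σ σ' hσ ξ' hv).trans (hξ.2 ξ' hv)

/-- the potential on `Fin d` -/
theorem exists_pot_fin (d A : ℕ) (hA : 1 ≤ A) (τ : ℝ) :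
    ∃ (Φ : (Fin d → ℝ) → ℝ) (E m T : ℝ), 0 < m ∧ 0 ≤ E ∧ 0 ≤ T ∧ IsPot Φ A τ E m T := by
  obtain ⟨N, T, h⟩ := exists_par d A hA τ
  have hT : 2 ≤ T := h.T_pos
  have hP : (0 : ℝ) < ((∏ k ∈ range d, N k : ℕ) : ℝ) := by exact_mod_cast h.P_pos
  refine ⟨fun x => sSup (valSet d T N x), 2 * T, T / ((∏ k ∈ range d, N k : ℕ) : ℝ), T,
    by positivity, by linarith, by linarith, ?_⟩
  have hsup : ∀ x : Fin d → ℝ, (∀ i, 0 < x i) → ∀ (σ : Equiv.Perm (Fin d)) (ξ : ℕ → ℚ),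
      Valid d N ξ → val d T N (Xs x σ) ξ ≤ sSup (valSet d T N x) := by
    intro x hx σ ξ hv
    obtain ⟨σ0, ξ0, -, -, hg⟩ := exists_greatest d A N T τ h x hx
    exact le_csSup ⟨_, hg.2⟩ ⟨σ, ξ, hv, rfl⟩
  refine ⟨?_, ?_, ?_⟩
  · intro x hx
    obtain ⟨σ, ξ, hσ, hξ, hg⟩ := exists_greatest d A N T τ h x hx
    have hX : ∀ k < d, 0 < Xs x σ k := fun k hk => by rw [Xs_lt x σ k hk]; exact hx _
    have hmono : ∀ i j, i ≤ j → j < d → Xs x σ j ≤ Xs x σ i := by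
      intro i j hij hj
      rw [Xs_lt x σ j hj, Xs_lt x σ i (by omega)]
      exact hσ (show (⟨i, by omega⟩ : Fin d) ≤ ⟨j, hj⟩ from hij)
    have hup := fun k hk => maxi_upper d A N T τ h (Xs x σ) hX hmono ξ hξ k hk
    have hlo := fun k hk => maxi_lower d A N T τ h (Xs x σ) hX hmono ξ hξ k hk
    refine ⟨fun i => T * ξ (σ.symm i), ?_, ?_, ?_⟩
    · intro x' hx'
      have e1 : sSup (valSet d T N x) = val d T N (Xs x σ) ξ := hg.csSup_eq
      have e2 : ∑ i, (x' i - x i) * (T * (ξ (σ.symm i) : ℝ)) =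
          ∑ k : Fin d, (x' (σ k) - x (σ k)) * (T * (ξ k : ℝ)) := by
        rw [← Equiv.sum_comp σ (fun i => (x' i - x i) * (T * (ξ (σ.symm i) : ℝ)))]
        simp
      have e3 := hsup x' hx' σ ξ hξ.1
      show sSup (valSet d T N x) + _ ≤ sSup (valSet d T N x')
      rw [e1, e2]
      refine le_trans (le_of_eq ?_) e3
      rw [val_fin, val_fin, ← sum_add_distrib]
      exact sum_congr rfl fun k _ => by ring
    · intro i
      have := err_bound d A N T τ h (Xs x σ) ξ hξ.1 hup hlo (σ.symm i) (σ.symm i).2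
      rw [Xs_fin, Equiv.apply_symm_apply] at this
      exact this
    · intro a ha
      set a' : ℕ → ℤ := fun k => if hk : k < d then a (σ ⟨k, hk⟩) else 0 with ha'
      have hafin : ∀ k : Fin d, a' k = a (σ k) := fun k => by simp [ha']
      have s1 : ∑ k ∈ range d, |a' k| = ∑ i, |a i| := by
        rw [Finset.sum_range]
        simp only [hafin]
        exact Equiv.sum_comp σ (fun i => |a i|)
      have s2 : ∑ k ∈ range d, (a' k : ℝ) * (T * ξ k) = ∑ i, (a i : ℝ) * (T * ξ (σ.symm i)) := by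
        rw [Finset.sum_range]
        simp only [hafin]
        rw [← Equiv.sum_comp σ (fun i => (a i : ℝ) * (T * (ξ (σ.symm i) : ℝ)))]
        simp
      have s3 : ∑ k ∈ range d, (a' k : ℝ) * Real.log (Xs x σ k) =
          ∑ i, (a i : ℝ) * Real.log (x i) := by
        rw [Finset.sum_range]
        simp only [hafin, Xs_fin]
        exact Equiv.sum_comp σ (fun i => (a i : ℝ) * Real.log (x i))
      have key := sign_compat d A N T τ h (Xs x σ) ξ hξ.1 hup hlo a' (by rw [s1]; exact ha)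
      rw [s2, s3] at key
      exact key
  · intro x hx
    obtain ⟨σ, hσ⟩ := exists_sorted x
    have hX : ∀ k < d, 0 < Xs x σ k := fun k hk => by rw [Xs_lt x σ k hk]; exact hx _
    have hmono : ∀ i j, i ≤ j → j < d → Xs x σ j ≤ Xs x σ i := by
      intro i j hij hj
      rw [Xs_lt x σ j hj, Xs_lt x σ i (by omega)]
      exact hσ (show (⟨i, by omega⟩ : Fin d) ≤ ⟨j, hj⟩ from hij)
    obtain ⟨ξ, hv, hle⟩ := le_val d A N T τ h (Xs x σ) hX hmono
    have e := sum_Xs x σ (fun y => y * (Real.log y - T - 1))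
    show _ ≤ sSup (valSet d T N x)
    rw [← e]
    exact hle.trans (hsup x hx σ ξ hv)
  · intro x hx
    obtain ⟨σ, ξ, hσ, hξ, hg⟩ := exists_greatest d A N T τ h x hx
    have hX : ∀ k < d, 0 < Xs x σ k := fun k hk => by rw [Xs_lt x σ k hk]; exact hx _
    have e := sum_Xs x σ (fun y => y * (Real.log y + T - 1))
    show sSup (valSet d T N x) ≤ _
    rw [hg.csSup_eq, ← e]
    exact val_le d A N T τ h (Xs x σ) hX ξ hξ.1

/-- **key theorem** -/
theorem exists_pot (ι : Type) [Fintype ι] (A : ℕ) (hA : 1 ≤ A) (τ : ℝ) :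
    ∃ (Φ : (ι → ℝ) → ℝ) (E m T : ℝ), 0 < m ∧ 0 ≤ E ∧ 0 ≤ T ∧ IsPot Φ A τ E m T := by
  obtain ⟨Φ, E, m, T, hm, hE, hT, hΦ⟩ := exists_pot_fin (Fintype.card ι) A hA τ
  let e := Fintype.equivFin ι
  have hs : ∀ f : ι → ℝ, ∑ i, f i = ∑ k, f (e.symm k) := fun f => (Equiv.sum_comp e.symm f).symm
  refine ⟨fun x => Φ (fun k => x (e.symm k)), E, m, T, hm, hE, hT, ?_, ?_, ?_⟩
  · intro x hx
    obtain ⟨v, h1, h2, h3⟩ := hΦ.good (fun k => x (e.symm k)) (fun k => hx _)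
    refine ⟨fun i => v (e i), ?_, ?_, ?_⟩
    · intro x' hx'
      have := h1 (fun k => x' (e.symm k)) (fun k => hx' _)
      rw [hs]
      simpa using this
    · intro i
      have := h2 (e i)
      simpa using this
    · intro a ha
      have s1 : ∑ k, |a (e.symm k)| = ∑ i, |a i| := Equiv.sum_comp e.symm (fun i => |a i|)
      have := h3 (fun k => a (e.symm k)) (by rw [s1]; exact ha)
      rw [hs, hs (fun i => (a i : ℝ) * Real.log (x i))]
      simpa using this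
  · intro x hx
    have := hΦ.lower (fun k => x (e.symm k)) (fun k => hx _)
    rw [hs]
    exact this
  · intro x hx
    have := hΦ.upper (fun k => x (e.symm k)) (fun k => hx _)
    rw [hs]
    exact this

end Vale.Agent.P072
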