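import Mathlib

/-! # P072-K: chains of denominators -/

namespace Vale.Agent.P072

open Finset

/-- `q_0 = 1`, `q_{k+1} = q_k * den (q_k ξ_k)` -/
def qq (ξ : ℕ → ℚ) : ℕ → ℕ
  | 0 => 1
  | k + 1 => qq ξ k * ((qq ξ k : ℚ) * ξ k).den

theorem qq_zero (ξ : ℕ → ℚ) : qq ξ 0 = 1 := rfl

theorem qq_succ (ξ : ℕ → ℚ) (k : ℕ) : qq ξ (k + 1) = qq ξ k * ((qq ξ k : ℚ) * ξ k).den := rfl

theorem qq_pos (ξ : ℕ → ℚ) (k : ℕ) : 0 < qq ξ k := by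
  induction k with
  | zero => simp [qq]
  | succ k ih => rw [qq_succ]; exact Nat.mul_pos ih (Rat.den_pos _)

theorem qq_dvd (ξ : ℕ → ℚ) {i j : ℕ} (h : i ≤ j) : qq ξ i ∣ qq ξ j := by
  induction j, h using Nat.le_induction with
  | base => exact dvd_rfl
  | succ j _ ih => rw [qq_succ]; exact ih.mul_right _

theorem qq_congr (ξ ξ' : ℕ → ℚ) (k : ℕ) (h : ∀ i < k, ξ i = ξ' i) : qq ξ k = qq ξ' k := by
  induction k with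
  | zero => rfl
  | succ k ih =>
    rw [qq_succ, qq_succ, ih (fun i hi => h i (by omega)), h k (by omega)]

theorem qq_int (ξ : ℕ → ℚ) (k : ℕ) : ∃ z : ℤ, (qq ξ (k + 1) : ℚ) * ξ k = z := by
  refine ⟨((qq ξ k : ℚ) * ξ k).num, ?_⟩
  rw [qq_succ]
  push_cast
  have := Rat.mul_den_eq_num ((qq ξ k : ℚ) * ξ k)
  rw [← this]
  ring

theorem qq_int' (ξ : ℕ → ℚ) {i j : ℕ} (h : i < j) : ∃ z : ℤ, (qq ξ j : ℚ) * ξ i = z := by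
  obtain ⟨z, hz⟩ := qq_int ξ i
  obtain ⟨c, hc⟩ := qq_dvd ξ (show i + 1 ≤ j by omega)
  refine ⟨c * z, ?_⟩
  rw [hc]
  push_cast
  rw [← hz]
  ring

/-- admissible sequences: denominators `≤ N k`, nonincreasing (only indices `< d` matter) -/
def Valid (d : ℕ) (N : ℕ → ℕ) (ξ : ℕ → ℚ) : Prop :=
  (∀ k < d, ((qq ξ k : ℚ) * ξ k).den ≤ N k) ∧ (∀ i j, i ≤ j → j < d → ξ j ≤ ξ i)

/-- radius at position `k` -/
noncomputable def rad (T : ℝ) (N : ℕ → ℕ) (ξ : ℕ → ℚ) (k : ℕ) : ℝ :=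
  T / ((qq ξ (k + 1) : ℝ) * N k)

/-- value of `ξ` -/
noncomputable def val (d : ℕ) (T : ℝ) (N : ℕ → ℕ) (X : ℕ → ℝ) (ξ : ℕ → ℚ) : ℝ :=
  ∑ k ∈ range d, (X k * (T * ξ k) - Real.exp (T * ξ k - rad T N ξ k))

theorem qq_le (d : ℕ) (N : ℕ → ℕ) (ξ : ℕ → ℚ) (h : Valid d N ξ) (k : ℕ) (hk : k ≤ d) :
    qq ξ k ≤ ∏ i ∈ range k, N i := by
  induction k with
  | zero => simp [qq]
  | succ k ih =>
    rw [qq_succ, prod_range_succ]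
    exact Nat.mul_le_mul (ih (by omega)) (h.1 k (by omega))

/-- parameters -/
structure Par (d A : ℕ) (N : ℕ → ℕ) (T τ : ℝ) : Prop where
  A1 : 1 ≤ A
  Npos : ∀ k, 1 ≤ N k
  N2 : ∀ i j, i < j → j < d → 2 * N j ≤ N i
  N4 : ∀ i < d, 4 * A * ∏ j ∈ Ioo i d, N j ≤ N i
  T1 : 2 * ((∏ k ∈ range d, N k : ℕ) : ℝ) ^ 2 ≤ T
  T2 : 2 * (d : ℝ) * T * Real.exp (-(T / (2 * ((∏ k ∈ range d, N k : ℕ) : ℝ)))) < 1
  T3 : (A : ℝ) * |Real.log (2 * T * d)| ≤ T / (4 * ((∏ k ∈ range d, N k : ℕ) : ℝ))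
  T4 : τ ≤ T / (2 * ((∏ k ∈ range d, N k : ℕ) : ℝ))

theorem Par.P_pos {d A : ℕ} {N : ℕ → ℕ} {T τ : ℝ} (h : Par d A N T τ) :
    1 ≤ ∏ k ∈ range d, N k :=
  Nat.succ_le_of_lt (Finset.prod_pos fun k _ => h.Npos k)

theorem Par.T_pos {d A : ℕ} {N : ℕ → ℕ} {T τ : ℝ} (h : Par d A N T τ) : 2 ≤ T := by
  have h1 : (1 : ℝ) ≤ ((∏ k ∈ range d, N k : ℕ) : ℝ) := by exact_mod_cast h.P_pos
  nlinarith [h.T1]

/-- `ξ` maximises the value -/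
def IsMaxi (d : ℕ) (T : ℝ) (N : ℕ → ℕ) (X : ℕ → ℝ) (ξ : ℕ → ℚ) : Prop :=
  Valid d N ξ ∧ ∀ ξ', Valid d N ξ' → val d T N X ξ' ≤ val d T N X ξ

end Vale.Agent.P072
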