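import Vale.Agent.P072.K.Chain

/-! # P072-K4a: the competitor -/

namespace Vale.Agent.P072

open Finset

/-- the competitor: keep the entries `< k`, put `u` at `k`, and follow `u` or the logarithms after
that -/
noncomputable def cmp (k : ℕ) (u : ℚ) (ξ : ℕ → ℚ) (q0 : ℕ) (T hh : ℝ) (X : ℕ → ℝ) : ℕ → ℚ :=
  fun j => if j < k then ξ j else if j = k then u else
    if Real.log (X k) - hh ≤ Real.log (X j) then u
    else min u ((⌊(q0 : ℝ) * Real.log (X j) / T⌋ : ℚ) / q0)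

theorem cmp_lt {k : ℕ} {u : ℚ} {ξ : ℕ → ℚ} {q0 : ℕ} {T hh : ℝ} {X : ℕ → ℝ} {j : ℕ} (h : j < k) :
    cmp k u ξ q0 T hh X j = ξ j := by
  unfold cmp; rw [if_pos h]

theorem cmp_self {k : ℕ} {u : ℚ} {ξ : ℕ → ℚ} {q0 : ℕ} {T hh : ℝ} {X : ℕ → ℝ} :
    cmp k u ξ q0 T hh X k = u := by
  unfold cmp; simp

theorem cmp_comp {k : ℕ} {u : ℚ} {ξ : ℕ → ℚ} {q0 : ℕ} {T hh : ℝ} {X : ℕ → ℝ} {j : ℕ} (h : k < j)
    (hc : Real.log (X k) - hh ≤ Real.log (X j)) :
    cmp k u ξ q0 T hh X j = u := by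
  unfold cmp; rw [if_neg (by omega), if_neg (by omega), if_pos hc]

theorem cmp_ncomp {k : ℕ} {u : ℚ} {ξ : ℕ → ℚ} {q0 : ℕ} {T hh : ℝ} {X : ℕ → ℝ} {j : ℕ} (h : k < j)
    (hc : ¬ Real.log (X k) - hh ≤ Real.log (X j)) :
    cmp k u ξ q0 T hh X j = min u ((⌊(q0 : ℝ) * Real.log (X j) / T⌋ : ℚ) / q0) := by
  unfold cmp; rw [if_neg (by omega), if_neg (by omega), if_neg hc]

theorem cmp_le {k : ℕ} {u : ℚ} {ξ : ℕ → ℚ} {q0 : ℕ} {T hh : ℝ} {X : ℕ → ℝ} {j : ℕ} (h : k ≤ j) :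
    cmp k u ξ q0 T hh X j ≤ u := by
  rcases h.eq_or_lt with h | h
  · subst h; rw [cmp_self]
  · by_cases hc : Real.log (X k) - hh ≤ Real.log (X j)
    · rw [cmp_comp h hc]
    · rw [cmp_ncomp h hc]; exact min_le_left _ _

/-- `q0 ξ'_j` is an integer for `j ≥ k` -/
theorem cmp_int {k : ℕ} {u : ℚ} {ξ : ℕ → ℚ} {q0 : ℕ} {T hh : ℝ} {X : ℕ → ℝ} (hq0 : 0 < q0)
    (hu : ∃ z : ℤ, (q0 : ℚ) * u = z) {j : ℕ} (h : k ≤ j) :
    ∃ z : ℤ, (q0 : ℚ) * cmp k u ξ q0 T hh X j = z := by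
  rcases h.eq_or_lt with h | h
  · subst h; rw [cmp_self]; exact hu
  · by_cases hc : Real.log (X k) - hh ≤ Real.log (X j)
    · rw [cmp_comp h hc]; exact hu
    · rw [cmp_ncomp h hc]
      have hq : (q0 : ℚ) ≠ 0 := by exact_mod_cast hq0.ne'
      rcases min_choice u ((⌊(q0 : ℝ) * Real.log (X j) / T⌋ : ℚ) / q0) with h1 | h1
      · rw [h1]; exact hu
      · rw [h1]
        exact ⟨⌊(q0 : ℝ) * Real.log (X j) / T⌋, by field_simp⟩

theorem cmp_qq_le {k : ℕ} {u : ℚ} {ξ : ℕ → ℚ} {q0 : ℕ} {T hh : ℝ} {X : ℕ → ℝ} {j : ℕ}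
    (h : j ≤ k) : qq (cmp k u ξ q0 T hh X) j = qq ξ j :=
  qq_congr _ _ _ fun _ hi => cmp_lt (by omega)

theorem u_int (k : ℕ) (u : ℚ) (ξ : ℕ → ℚ) :
    ∃ z : ℤ, ((qq ξ k * ((qq ξ k : ℚ) * u).den : ℕ) : ℚ) * u = z := by
  refine ⟨((qq ξ k : ℚ) * u).num, ?_⟩
  push_cast
  have := Rat.mul_den_eq_num ((qq ξ k : ℚ) * u)
  rw [← this]
  ring

theorem q0_pos (k : ℕ) (u : ℚ) (ξ : ℕ → ℚ) : 0 < qq ξ k * ((qq ξ k : ℚ) * u).den :=
  Nat.mul_pos (qq_pos _ _) (Rat.den_pos _)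

theorem cmp_qq_gt {k : ℕ} {u : ℚ} {ξ : ℕ → ℚ} {T hh : ℝ} {X : ℕ → ℝ} {j : ℕ} (h : k + 1 ≤ j) :
    qq (cmp k u ξ (qq ξ k * ((qq ξ k : ℚ) * u).den) T hh X) j
      = qq ξ k * ((qq ξ k : ℚ) * u).den := by
  induction j, h using Nat.le_induction with
  | base => rw [qq_succ, cmp_qq_le le_rfl, cmp_self]
  | succ j hj ih =>
    rw [qq_succ, ih]
    obtain ⟨z, hz⟩ := cmp_int (k := k) (ξ := ξ) (T := T) (hh := hh) (X := X) (q0_pos k u ξ)
      (u_int k u ξ) (show k ≤ j by omega)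
    rw [hz]
    simp

theorem cmp_valid {d A : ℕ} {N : ℕ → ℕ} {T τ : ℝ} (h : Par d A N T τ) {X : ℕ → ℝ}
    (hX : ∀ k < d, 0 < X k) (hmono : ∀ i j, i ≤ j → j < d → X j ≤ X i) {ξ : ℕ → ℚ}
    (hξ : Valid d N ξ) {k : ℕ} {u : ℚ} (hu : ∀ i < k, u ≤ ξ i)
    (hr : ((qq ξ k : ℚ) * u).den ≤ N k) (hh : ℝ) :
    Valid d N (cmp k u ξ (qq ξ k * ((qq ξ k : ℚ) * u).den) T hh X) := by
  have hT : (0 : ℝ) < T := by linarith [h.T_pos]
  have hq0 := q0_pos k u ξ
  have hq0' : (0 : ℝ) < ((qq ξ k * ((qq ξ k : ℚ) * u).den : ℕ) : ℝ) := by exact_mod_cast hq0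
  have hq0'' : (0 : ℚ) < ((qq ξ k * ((qq ξ k : ℚ) * u).den : ℕ) : ℚ) := by exact_mod_cast hq0
  refine ⟨fun j hj => ?_, fun i j hij hj => ?_⟩
  · rcases lt_trichotomy j k with h1 | h1 | h1
    · rw [cmp_qq_le h1.le, cmp_lt h1]; exact hξ.1 j hj
    · subst h1
      rw [cmp_qq_le le_rfl, cmp_self]; exact hr
    · rw [cmp_qq_gt (by omega)]
      obtain ⟨z, hz⟩ := cmp_int (k := k) (ξ := ξ) (T := T) (hh := hh) (X := X) hq0
        (u_int k u ξ) h1.le
      rw [hz]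
      simpa using h.Npos j
  · by_cases hik : i < k
    · by_cases hjk : j < k
      · rw [cmp_lt hik, cmp_lt hjk]; exact hξ.2 i j hij hj
      · rw [cmp_lt hik]
        exact (cmp_le (by omega)).trans (hu i hik)
    · by_cases hik' : i = k
      · subst hik'
        rw [cmp_self]
        exact cmp_le hij
      · have hki : k < i := by omega
        by_cases hc : Real.log (X k) - hh ≤ Real.log (X i)
        · rw [cmp_comp hki hc]
          exact cmp_le (by omega)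
        · have hlog : Real.log (X j) ≤ Real.log (X i) :=
            Real.log_le_log (hX j hj) (hmono i j hij hj)
          have hc' : ¬ Real.log (X k) - hh ≤ Real.log (X j) := fun h' => hc (h'.trans hlog)
          rw [cmp_ncomp hki hc, cmp_ncomp (by omega) hc']
          refine min_le_min le_rfl ?_
          refine div_le_div_of_nonneg_right ?_ hq0''.le
          exact_mod_cast Int.floor_le_floor
            (div_le_div_of_nonneg_right (mul_le_mul_of_nonneg_left hlog hq0'.le) hT.le)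

/-- `X s - e^{s-R} ≤ X (log X + R - 1)` -/
theorem conc_le (X s R : ℝ) (hX : 0 < X) :
    X * s - Real.exp (s - R) ≤ X * (Real.log X + R - 1) := by
  have h1 : Real.exp (s - R) = X * Real.exp (s - R - Real.log X) := by
    conv_rhs => rw [Real.exp_sub, Real.exp_log hX]
    field_simp
  have h2 := Real.add_one_le_exp (s - R - Real.log X)
  rw [h1]
  nlinarith

/-- if `s - R ≤ log X` then the term is at least `X (s - 1)` -/
theorem term_ge (X s R : ℝ) (hX : 0 < X) (h : s - R ≤ Real.log X) :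
    X * (s - 1) ≤ X * s - Real.exp (s - R) := by
  have h1 : Real.exp (s - R) ≤ X := by
    rw [← Real.exp_log hX]
    simpa [Real.exp_log hX] using Real.exp_le_exp.2 h
  linarith

theorem q0_le {d : ℕ} {N : ℕ → ℕ} {ξ : ℕ → ℚ} (hξ : Valid d N ξ) {k : ℕ} (hk : k < d) {u : ℚ}
    (hr : ((qq ξ k : ℚ) * u).den ≤ N k) :
    qq ξ k * ((qq ξ k : ℚ) * u).den ≤ ∏ i ∈ range (k + 1), N i := by
  rw [prod_range_succ]
  exact Nat.mul_le_mul (qq_le d N ξ hξ k hk.le) hr

theorem prod_mul_le {d : ℕ} {N : ℕ → ℕ} (hN : ∀ k, 1 ≤ N k) {k j : ℕ} (hkj : k < j)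
    (hj : j < d) : (∏ i ∈ range (k + 1), N i) * N j ≤ ∏ i ∈ range d, N i := by
  have h1 : (∏ i ∈ range (k + 1), N i) * N j = ∏ i ∈ insert j (range (k + 1)), N i := by
    rw [prod_insert (by simp; omega), mul_comm]
  rw [h1]
  refine Finset.prod_le_prod_of_subset_of_one_le' ?_ fun i _ _ => hN i
  intro i hi
  simp only [mem_insert, mem_range] at hi ⊢
  omega

theorem compete_term {d A : ℕ} {N : ℕ → ℕ} {T τ : ℝ} (h : Par d A N T τ) {X : ℕ → ℝ}
    (hX : ∀ k < d, 0 < X k) (hmono : ∀ i j, i ≤ j → j < d → X j ≤ X i) {ξ : ℕ → ℚ}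
    (hξ : Valid d N ξ) {k : ℕ} (hk : k < d) {u : ℚ}
    (hr : ((qq ξ k : ℚ) * u).den ≤ N k)
    (h1 : T * u - T / ((qq ξ k : ℝ) * ((qq ξ k : ℚ) * u).den * N k) ≤ Real.log (X k))
    (h2 : Real.log (X k) - T ≤ T * u) (h3 : T * ξ k + 2 ≤ T * u)
    (ξ' : ℕ → ℚ)
    (hξ' : ξ' = cmp k u ξ (qq ξ k * ((qq ξ k : ℚ) * u).den) T
      (T / (2 * ((∏ k ∈ range d, N k : ℕ) : ℝ))) X) {j : ℕ} (hj : j < d) :
    (if j = k then X k else 0) - 2 * T * Real.exp (-(T / (2 * ((∏ k ∈ range d, N k : ℕ) : ℝ)))) * X k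
      ≤ (X j * (T * ξ' j) - Real.exp (T * ξ' j - rad T N ξ' j))
        - (X j * (T * ξ j) - Real.exp (T * ξ j - rad T N ξ j)) := by
  have hT : (0 : ℝ) < T := by linarith [h.T_pos]
  have hXk := hX k hk
  have hXj := hX j hj
  set P : ℝ := ((∏ k ∈ range d, N k : ℕ) : ℝ) with hP
  have hP1 : 1 ≤ P := by rw [hP]; exact_mod_cast h.P_pos
  set hh : ℝ := T / (2 * P) with hhh
  have hneg : 0 ≤ 2 * T * Real.exp (-hh) * X k := by positivity
  have hq0 := q0_pos k u ξ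
  have hq0R : (1 : ℝ) ≤ ((qq ξ k * ((qq ξ k : ℚ) * u).den : ℕ) : ℝ) := by
    exact_mod_cast Nat.succ_le_of_lt hq0
  have hNk : (1 : ℝ) ≤ (N k : ℝ) := by exact_mod_cast h.Npos k
  have hNj : (1 : ℝ) ≤ (N j : ℝ) := by exact_mod_cast h.Npos j
  rcases lt_trichotomy j k with hjk | hjk | hjk
  · -- j < k : same
    rw [if_neg (by omega)]
    have e1 : ξ' j = ξ j := by rw [hξ']; exact cmp_lt hjk
    have e2 : rad T N ξ' j = rad T N ξ j := by
      unfold rad; rw [hξ', cmp_qq_le (by omega)]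
    rw [e1, e2]
    linarith
  · subst hjk
    rw [if_pos rfl]
    have e1 : ξ' j = u := by rw [hξ']; exact cmp_self
    have e2 : rad T N ξ' j = T / ((qq ξ j : ℝ) * ((qq ξ j : ℚ) * u).den * N j) := by
      unfold rad
      rw [hξ', cmp_qq_gt (by omega)]
      push_cast
      rfl
    rw [e1, e2]
    have t1 := term_ge (X j) (T * u) _ hXj h1
    have t2 : 0 < Real.exp (T * ξ j - rad T N ξ j) := Real.exp_pos _
    nlinarith
  · rw [if_neg (by omega)]
    by_cases hc : Real.log (X k) - hh ≤ Real.log (X j)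
    · have e1 : ξ' j = u := by rw [hξ']; exact cmp_comp hjk hc
      have e2 : rad T N ξ' j = T / (((qq ξ k * ((qq ξ k : ℚ) * u).den : ℕ) : ℝ) * N j) := by
        unfold rad
        rw [hξ', cmp_qq_gt (by omega)]
      set q0 : ℝ := ((qq ξ k * ((qq ξ k : ℚ) * u).den : ℕ) : ℝ) with hq0def
      have e3 : T / ((qq ξ k : ℝ) * ((qq ξ k : ℚ) * u).den * N k) = T / (q0 * N k) := by
        rw [hq0def]; push_cast; rfl
      rw [e3] at h1
      have hN2 : 2 * (N j : ℝ) ≤ N k := by exact_mod_cast h.N2 k j hjk hj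
      have hqP : q0 * N j ≤ P := by
        rw [hq0def, hP]
        have := (Nat.mul_le_mul_right (N j) (q0_le hξ hk hr)).trans
          (prod_mul_le h.Npos hjk hj)
        exact_mod_cast this
      have hq0N : 0 < q0 * N j := by positivity
      have k1 : T / (q0 * N k) ≤ T / (2 * (q0 * N j)) := by
        apply div_le_div_of_nonneg_left hT.le (by positivity)
        nlinarith
      have k2 : T / (q0 * N j) - T / (2 * (q0 * N j)) = T / (2 * (q0 * N j)) := by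
        field_simp; ring
      have k3 : hh ≤ T / (2 * (q0 * N j)) := by
        rw [hhh]
        apply div_le_div_of_nonneg_left hT.le (by positivity)
        linarith
      rw [e1, e2]
      have t1 := term_ge (X j) (T * u) (T / (q0 * N j)) hXj (by linarith)
      have t2 : 0 < Real.exp (T * ξ j - rad T N ξ j) := Real.exp_pos _
      have t3 : (ξ j : ℝ) ≤ ξ k := by exact_mod_cast hξ.2 k j hjk.le hj
      have t4 : T * (ξ j : ℝ) ≤ T * ξ k := mul_le_mul_of_nonneg_left t3 hT.le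
      nlinarith
    · -- not comparable
      set q0 : ℕ := qq ξ k * ((qq ξ k : ℚ) * u).den with hq0def
      have e1 : ξ' j = min u ((⌊(q0 : ℝ) * Real.log (X j) / T⌋ : ℚ) / q0) := by
        rw [hξ']; exact cmp_ncomp hjk hc
      have hR' : 0 ≤ rad T N ξ' j := by unfold rad; positivity
      have hR : rad T N ξ j ≤ T := by
        unfold rad
        apply div_le_self hT.le
        have : (1 : ℝ) ≤ (qq ξ (j + 1) : ℝ) := by
          exact_mod_cast Nat.succ_le_of_lt (qq_pos ξ (j + 1))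
        nlinarith
      have hlt : Real.log (X j) < Real.log (X k) - hh := lt_of_not_ge hc
      have hh0 : 0 < hh := by rw [hhh]; positivity
      have hXjk : X j ≤ Real.exp (-hh) * X k := by
        rw [← Real.exp_log hXj, ← Real.exp_log hXk, ← Real.exp_add]
        apply Real.exp_le_exp.2
        linarith
      have hq0pos : (0 : ℝ) < (q0 : ℝ) := by linarith
      -- T * F ≤ w_j, T * F ≥ w_j - T
      have f1 : T * (((⌊(q0 : ℝ) * Real.log (X j) / T⌋ : ℚ) / q0 : ℚ) : ℝ) ≤ Real.log (X j) := by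
        have := Int.floor_le ((q0 : ℝ) * Real.log (X j) / T)
        push_cast
        rw [mul_div_assoc', div_le_iff₀ hq0pos]
        rw [le_div_iff₀ hT] at this
        linarith
      have f2 : Real.log (X j) - T ≤ T * (((⌊(q0 : ℝ) * Real.log (X j) / T⌋ : ℚ) / q0 : ℚ) : ℝ) := by
        have := (Int.lt_floor_add_one ((q0 : ℝ) * Real.log (X j) / T)).le
        push_cast
        rw [mul_div_assoc', le_div_iff₀ hq0pos]
        rw [div_le_iff₀ hT] at this
        nlinarith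
      have s1 : T * (ξ' j : ℝ) ≤ Real.log (X j) := by
        have : (ξ' j : ℝ) ≤ (((⌊(q0 : ℝ) * Real.log (X j) / T⌋ : ℚ) / q0 : ℚ) : ℝ) := by
          rw [e1]; exact_mod_cast min_le_right _ _
        exact (mul_le_mul_of_nonneg_left this hT.le).trans f1
      have s2 : Real.log (X j) - T ≤ T * (ξ' j : ℝ) := by
        rcases min_choice u ((⌊(q0 : ℝ) * Real.log (X j) / T⌋ : ℚ) / q0) with h' | h'
        · rw [e1, h']; linarith
        · rw [e1, h']; exact f2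
      have t1 := term_ge (X j) (T * ξ' j) (rad T N ξ' j) hXj (by linarith)
      have t2 := conc_le (X j) (T * ξ j) (rad T N ξ j) hXj
      have t3 : X j * (Real.log (X j) + rad T N ξ j - 1) ≤ X j * (Real.log (X j) + T - 1) :=
        mul_le_mul_of_nonneg_left (by linarith) hXj.le
      have t4 : X j * (Real.log (X j) - T - 1) ≤ X j * (T * ξ' j - 1) :=
        mul_le_mul_of_nonneg_left (by linarith) hXj.le
      have t5 : 2 * T * X j ≤ 2 * T * Real.exp (-hh) * X k := by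
        have := mul_le_mul_of_nonneg_left hXjk (by positivity : (0 : ℝ) ≤ 2 * T)
        linarith
      nlinarith

/-- if the `k`-th entry can be raised by at least `2/T` to a good rational `u`, then `ξ` is not
optimal -/
theorem compete (d A : ℕ) (N : ℕ → ℕ) (T τ : ℝ) (h : Par d A N T τ) (X : ℕ → ℝ)
    (hX : ∀ k < d, 0 < X k) (hmono : ∀ i j, i ≤ j → j < d → X j ≤ X i) (ξ : ℕ → ℚ)
    (hξ : Valid d N ξ) (k : ℕ) (hk : k < d) (u : ℚ) (hu : ∀ i < k, u ≤ ξ i)
    (hr : ((qq ξ k : ℚ) * u).den ≤ N k)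
    (h1 : T * u - T / ((qq ξ k : ℝ) * ((qq ξ k : ℚ) * u).den * N k) ≤ Real.log (X k))
    (h2 : Real.log (X k) - T ≤ T * u) (h3 : T * ξ k + 2 ≤ T * u) :
    ∃ ξ', Valid d N ξ' ∧ val d T N X ξ < val d T N X ξ' := by
  refine ⟨cmp k u ξ (qq ξ k * ((qq ξ k : ℚ) * u).den) T
      (T / (2 * ((∏ k ∈ range d, N k : ℕ) : ℝ))) X, cmp_valid h hX hmono hξ hu hr _, ?_⟩
  set ξ' := cmp k u ξ (qq ξ k * ((qq ξ k : ℚ) * u).den) T
      (T / (2 * ((∏ k ∈ range d, N k : ℕ) : ℝ))) X with hξ'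
  have hXk := hX k hk
  have key : ∑ j ∈ range d, ((if j = k then X k else 0)
      - 2 * T * Real.exp (-(T / (2 * ((∏ k ∈ range d, N k : ℕ) : ℝ)))) * X k)
      ≤ val d T N X ξ' - val d T N X ξ := by
    unfold val
    rw [← sum_sub_distrib]
    exact sum_le_sum fun j hj => compete_term h hX hmono hξ hk hr h1 h2 h3 ξ' hξ'
      (mem_range.1 hj)
  rw [sum_sub_distrib, sum_ite_eq' (range d) k (fun _ => X k), if_pos (mem_range.2 hk), sum_const,
    card_range, nsmul_eq_mul] at key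
  have h5 := h.T2
  nlinarith

end Vale.Agent.P072
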